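import Vale.Agent.P032.H154.Hand5
import Vale.Agent.P032.H471.Sec4T

/-!
# P032: a centre with complementary ends and a point with four colours on its circle (helper64)

`exists_compY` : in a frame `Irr`, `Mn`, `NoPair5` without `NoComp` some centre with complementary
ends has a point with four colours on its circle (`sec4_471`, `no_comp_clean`).
`CompY` : the same for sets `U i` in the plane; `noComp_ofY` : without `CompY`, `NoComp`.
`exists_degY`, `handDegY` : the degree theorem from the block `XDegC` with `CompY` as the third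
alternative.
-/

open Set Filter Topology Metric

noncomputable section

namespace Vale.Agent.P032.H64

open Vale.Agent.P032.Six Vale.Agent.P032.S5.H843 Vale.Agent.P032.S5.H926 Vale.Agent.P032.Words6
  Vale.Agent.P032.S5.H138 Vale.Agent.P032.H154 Vale.Agent.P032.H169
open Vale.Agent.P032.H594 (Comp no_comp_clean)
open Vale.Agent.P032.H471 (OnlyJC sec4_471)

/-- **a centre with complementary ends and a point with four colours on its circle** -/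
theorem exists_compY {U : Fin 6 → Set ℂ} {T : ℂ → Set (Fin 6)} (h : Irr U T) (hmin : Mn U T)
    (h5 : NoPair5 T) (hN : ¬ NoComp T) :
    ∃ z v q y, EE T z v ∧ EE T z q ∧ T q = (T v)ᶜ ∧ dist y z = 1 ∧ (T y).ncard = 4 := by
  by_contra hcon
  have hcl : ∀ z, Comp T z → ∀ y, dist y z = 1 → (T y).ncard ≤ 3 := by
    rintro z ⟨v, q, hv, hq, hc⟩ y hy
    by_contra h4
    rcases Nat.lt_or_ge 4 (T y).ncard with h6 | h6
    · exact h5 y z hy h6 hv.card_z.ge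
    · exact hcon ⟨z, v, q, y, hv, hq, hc, hy, by omega⟩
  have hJ : OnlyJC T := fun z v q y hv hq hc hy => Or.inl (hcl z ⟨v, q, hv, hq, hc⟩ y hy)
  have hS := sec4_471 h hmin h5 hJ
  exact hN (Vale.Agent.P032.H594.noComp_of h hS (no_comp_clean h hS hcl))

/-- complementary triples of indices at two points of the circle of a point `z` that needs four
indices, and on the same circle a point that needs four indices -/
def CompY (U : Fin 6 → Set (EuclideanSpace ℝ (Fin 2))) : Prop :=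
  ∃ z v q y, ∃ S X S' : Set (Fin 6), MSU U S z ∧ MSU U S' y ∧ X.ncard = 3 ∧ (S ∩ X).ncard = 2 ∧
    dist v z = 1 ∧ dist q z = 1 ∧ dist y z = 1 ∧ v ≠ q ∧ dist v q < 2 ∧
    TriC U X v ∧ TriC U Xᶜ q

/-- without such points there are no complementary palettes in the frame -/
theorem noComp_ofY {U : Fin 6 → Set (EuclideanSpace ℝ (Fin 2))}
    {φ : ℂ ≃ₗᵢ[ℝ] EuclideanSpace ℝ (Fin 2)} {T : ℂ → Set (Fin 6)} (hd : Dense (⋃ i, U i))
    (h : Irr (fun i => φ ⁻¹' U i) T) (hmin : Mn (fun i => φ ⁻¹' U i) T) (h5 : NoPair5 T)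
    (hM : ∀ z, (T z).ncard = 4 → MSU U (T z) (φ z)) (hcon : ¬ CompY U) : NoComp T := by
  by_contra hN
  obtain ⟨z, v, q, y, hv, hq, hc, hy, hy4⟩ := exists_compY h hmin h5 hN
  have hlt : dist v q < 2 := by
    have h6 : dist v q ≤ 2 := by
      have := dist_triangle_right v q z
      have h7 := hv.dist
      have h8 := hq.dist
      linarith
    exact lt_of_le_of_ne h6 fun h7 => hv.anti h hq hc (opp_of_dist hv.dist hq.dist h7)
  have hne : v ≠ q := by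
    rintro rfl
    have h6 := congrArg (fun s : Set (Fin 6) => (0 : Fin 6) ∈ s) hc
    simp at h6
  exact hcon ⟨φ z, φ v, φ q, φ y, T z, T v, T y, hM z hv.card_z, hM y hy4, hv.card_v, hv.card_i,
    by rw [φ.dist_map]; exact hv.dist, by rw [φ.dist_map]; exact hq.dist,
    by rw [φ.dist_map]; exact hy, φ.injective.ne hne, by rw [φ.dist_map]; exact hlt,
    triC_of hd (tri_map φ (tri_of h v)), hc ▸ triC_of hd (tri_map φ (tri_of h q))⟩

/-- **degree theorem**, from the block `XDegC`, with `CompY` -/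
theorem exists_degY (HX : XDegC) {U : Fin 6 → Set (EuclideanSpace ℝ (Fin 2))}
    (hU : ∀ i, Maximal (fun W : Set (EuclideanSpace ℝ (Fin 2)) =>
      IsOpen W ∧ ∀ x ∈ W, ∀ y ∈ W, dist x y ≠ 1) (U i))
    (hd : Dense (⋃ i, U i)) :
    (∃ z z', dist z z' = 1 ∧ z ∈ XU U 4 ∧ z' ∈ XU U 3) ∨
      (∃ z y1 y2 y3, ∃ S S1 S2 S3 : Set (Fin 6), MSU U S z ∧ MSU U S1 y1 ∧
        MSU U S2 y2 ∧ MSU U S3 y3 ∧ dist y1 z = 1 ∧ dist y2 z = 1 ∧ dist y3 z = 1 ∧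
        y1 ≠ y2 ∧ y1 ≠ y3 ∧ y2 ≠ y3) ∨ CompY U := by
  by_contra hcon
  rw [not_or, not_or] at hcon
  obtain ⟨hcon1, hcon2, hcon3⟩ := hcon
  obtain ⟨φ, T, h1, h2, h3, hM, -⟩ := exists_frame6 hU hd
    fun z z' h4 h5 h6 => hcon1 ⟨z, z', h4, h5, h6⟩
  have hN := noComp_ofY hd h1 h2 h3 hM hcon3
  have hF := df_of_nc' h1 h2 h3 hN
  exact HX _ T hF hN (noThree_of hF.le4 hM hcon2)

/-- **degree theorem**, from the block `XDegC`, in the words of Mathlib -/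
theorem handDegY (HX : XDegC) :
    (∀ V : Fin 6 → Set (EuclideanSpace ℝ (Fin 2)), (∀ i, IsOpen (V i)) →
      (∀ i, ∀ x ∈ V i, ∀ y ∈ V i, dist x y ≠ 1) → Dense (⋃ i, V i) →
      ∃ U : Fin 6 → Set (EuclideanSpace ℝ (Fin 2)), (∀ i, V i ⊆ U i) ∧ Dense (⋃ i, U i) ∧
        ∀ i, Maximal (fun W : Set (EuclideanSpace ℝ (Fin 2)) =>
          IsOpen W ∧ ∀ x ∈ W, ∀ y ∈ W, dist x y ≠ 1) (U i)) ∧
    (∀ U : Fin 6 → Set (EuclideanSpace ℝ (Fin 2)), Dense (⋃ i, U i) →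
      (∀ i, Maximal (fun W : Set (EuclideanSpace ℝ (Fin 2)) =>
        IsOpen W ∧ ∀ x ∈ W, ∀ y ∈ W, dist x y ≠ 1) (U i)) →
      (∃ z z', dist z z' = 1 ∧
        (∀ s : Set (Fin 6), s.ncard ≤ 4 → z ∈ closure ((⋃ j, U j) \ ⋃ i ∈ s, U i)) ∧
        ∀ s : Set (Fin 6), s.ncard ≤ 3 → z' ∈ closure ((⋃ j, U j) \ ⋃ i ∈ s, U i)) ∨
      (∃ z y1 y2 y3, ∃ S S1 S2 S3 : Set (Fin 6),
        (S.ncard = 4 ∧ z ∉ closure ((⋃ j, U j) \ ⋃ i ∈ S, U i) ∧
          ∀ s ⊂ S, z ∈ closure ((⋃ j, U j) \ ⋃ i ∈ s, U i)) ∧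
        (S1.ncard = 4 ∧ y1 ∉ closure ((⋃ j, U j) \ ⋃ i ∈ S1, U i) ∧
          ∀ s ⊂ S1, y1 ∈ closure ((⋃ j, U j) \ ⋃ i ∈ s, U i)) ∧
        (S2.ncard = 4 ∧ y2 ∉ closure ((⋃ j, U j) \ ⋃ i ∈ S2, U i) ∧
          ∀ s ⊂ S2, y2 ∈ closure ((⋃ j, U j) \ ⋃ i ∈ s, U i)) ∧
        (S3.ncard = 4 ∧ y3 ∉ closure ((⋃ j, U j) \ ⋃ i ∈ S3, U i) ∧
          ∀ s ⊂ S3, y3 ∈ closure ((⋃ j, U j) \ ⋃ i ∈ s, U i)) ∧
        dist y1 z = 1 ∧ dist y2 z = 1 ∧ dist y3 z = 1 ∧ y1 ≠ y2 ∧ y1 ≠ y3 ∧ y2 ≠ y3) ∨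
      ∃ z v q y, ∃ S X S' : Set (Fin 6),
        (S.ncard = 4 ∧ z ∉ closure ((⋃ j, U j) \ ⋃ i ∈ S, U i) ∧
          ∀ s ⊂ S, z ∈ closure ((⋃ j, U j) \ ⋃ i ∈ s, U i)) ∧
        (S'.ncard = 4 ∧ y ∉ closure ((⋃ j, U j) \ ⋃ i ∈ S', U i) ∧
          ∀ s ⊂ S', y ∈ closure ((⋃ j, U j) \ ⋃ i ∈ s, U i)) ∧
        X.ncard = 3 ∧ (S ∩ X).ncard = 2 ∧
        dist v z = 1 ∧ dist q z = 1 ∧ dist y z = 1 ∧ v ≠ q ∧ dist v q < 2 ∧
        (v ∉ closure ((⋃ j, U j) \ ⋃ i ∈ X, U i) ∧ ∀ i ∈ X, v ∈ closure (U i)) ∧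
        q ∉ closure ((⋃ j, U j) \ ⋃ i ∈ Xᶜ, U i) ∧ ∀ i ∈ Xᶜ, q ∈ closure (U i)) :=
  ⟨ext_part, fun _ hd hU => exists_degY HX hU hd⟩

end Vale.Agent.P032.H64
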